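import Vale.Agent.Lib.P161.Final
import Vale.Agent.Lib.P161.Mono.Main
import Vale.Agent.Lib.P161.Ex.Exists
import Vale.Agent.Lib.P161.Ex.BitLaw
import Vale.Agent.Lib.P161.Ex.Unique

/-!
# P161: the parameters for which the free Ising measure on the regular tree is a factor of IID
form an interval starting at `0`

On every `d`-regular tree the free Ising measure with parameter `θ = tanh β ∈ [0, 1]` exists and is
unique; it is a factor of IID for `θ = 0`; and if it is a factor of IID for `θ`, then it is one for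
every `0 ≤ θ' ≤ θ`.  The property is also inherited by smaller degrees.

The objects `IsRegTree`, `IsFreeIsing`, `IsFIID` (and `obs`, `act`, `iidLaw`) are defined in
`Vale/Agent/Lib/P161/Defs.lean`.
-/

namespace Vale.Agent.Results.P161.A_IntervalStructure

open Vale.Agent.Lib.P161 MeasureTheory

theorem result :
    (∀ d : ℕ, 1 ≤ d → ∃ (V : Type) (G : SimpleGraph V), Countable V ∧ IsRegTree d G) ∧
    (∀ (d : ℕ) (V : Type) (G : SimpleGraph V), IsRegTree d G →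
      (∀ θ : ℝ, 0 ≤ θ → θ ≤ 1 → ∃! μ : Measure (V → Bool), IsFreeIsing G θ μ) ∧
      (∀ μ : Measure (V → Bool), IsFreeIsing G 0 μ → IsFIID G μ) ∧
      (∀ (θ' θ : ℝ) (μ' μ : Measure (V → Bool)), 0 ≤ θ' → θ' ≤ θ →
        IsFreeIsing G θ' μ' → IsFreeIsing G θ μ → IsFIID G μ → IsFIID G μ')) ∧
    (∀ (d' d : ℕ) (θ' θ : ℝ), 1 ≤ d' → d' ≤ d → 0 ≤ θ' → θ' ≤ θ → θ ≤ 1 →
      (∀ (V : Type) (G : SimpleGraph V) (μ : Measure (V → Bool)), IsRegTree d G →
        IsFreeIsing G θ μ → IsFIID G μ) →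
      ∀ (W : Type) (H : SimpleGraph W) (ν : Measure (W → Bool)), IsRegTree d' H →
        IsFreeIsing H θ' ν → IsFIID H ν) := by
  have key : ∀ (d : ℕ) (V : Type) (G : SimpleGraph V), IsRegTree d G →
      ∀ θ' θ : ℝ, 0 ≤ θ' → θ' ≤ θ → FreeIsingIsFIID G θ → FreeIsingIsFIID G θ' := by
    intro d V G hG θ' θ h0 h1 h
    rcases eq_or_lt_of_le (h0.trans h1) with h2 | h2
    · have h3 : θ' = θ := le_antisymm h1 (h2 ▸ h0)
      rw [h3]
      exact h
    · have h3 := freeIsingIsFIID_mono hG (θ := θ) (t := θ' / θ) h2.le (div_nonneg h0 h2.le)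
        ((div_le_one h2).2 h1) h
      rwa [div_mul_cancel₀ _ h2.ne'] at h3
  have tr : ∀ (d : ℕ) (V : Type) (G : SimpleGraph V), IsRegTree d G → ∀ θ : ℝ, 0 ≤ θ →
      FreeIsingIsFIID G θ → ∀ μ : Measure (V → Bool), IsFreeIsing G θ μ → IsFIID G μ := by
    intro d V G hG θ h0 h μ hμ
    obtain ⟨μ₁, a, b⟩ := h
    rw [freeIsing_unique hG.1.1 h0 hμ a]
    exact b
  refine ⟨fun d hd => ⟨_, wordTree d (d - 1), inferInstance, wordTree_isRegTree d hd⟩, ?_, ?_⟩
  · intro d V G hG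
    refine ⟨fun θ h0 h1 => ?_, fun μ hμ => ?_, ?_⟩
    · obtain ⟨μ, hμ⟩ := exists_freeIsing hG h0 h1
      exact ⟨μ, hμ, fun μ' hμ' => freeIsing_unique hG.1.1 h0 hμ' hμ⟩
    · exact tr d V G hG 0 le_rfl (freeIsingIsFIID_zero hG.1.2) μ hμ
    · intro θ' θ μ' μ h0 hle hμ' hμ hF
      exact tr d V G hG θ' h0 (key d V G hG θ' θ h0 hle ⟨μ, hμ, hF⟩) μ' hμ'
  · intro d' d θ' θ h1 hdd h0 hle hθ hall W H ν hH hν
    have hR := rootedProd_isRegTree (h1.trans hdd) hdd hH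
    obtain ⟨μ, hμ⟩ := exists_freeIsing hR (h0.trans hle) hθ
    have hH' : FreeIsingIsFIID H θ := freeIsingIsFIID_of_rootedProd ⟨μ, hμ, hall _ _ μ hR hμ⟩
    exact tr d' W H hH θ' h0 (key d' W H hH θ' θ h0 hle hH') ν hν

end Vale.Agent.Results.P161.A_IntervalStructure
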