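import Vale.Agent.Lib.P161.Final

/-!
# P161: two structural properties of the set of parameters for which the free Ising measure on the
regular tree is a factor of IID

* it does not grow with the degree `d`;
* in terms of `θ = tanh β` it is closed under products.

The objects `IsRegTree`, `FreeIsingIsFIID` (and `IsFreeIsing`, `IsFIID`, `obs`, `act`, `iidLaw`) are
defined in `Vale/Agent/Lib/P161/Defs.lean`.
-/

namespace Vale.Agent.Results.P161.DegreeMonotoneAndProducts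

open Vale.Agent.Lib.P161

theorem result :
    (∀ d : ℕ, 1 ≤ d → ∃ (V : Type) (G : SimpleGraph V), Countable V ∧ IsRegTree d G) ∧
    (∀ (d' d : ℕ) (θ : ℝ), 1 ≤ d' → d' ≤ d →
      (∀ (V : Type) (G : SimpleGraph V), IsRegTree d G → FreeIsingIsFIID G θ) →
      ∀ (W : Type) (H : SimpleGraph W), IsRegTree d' H → FreeIsingIsFIID H θ) ∧
    (∀ (d' d : ℕ), 1 ≤ d' → d' ≤ d → ∀ (W : Type) (H : SimpleGraph W), IsRegTree d' H →
      ∃ (V : Type) (G : SimpleGraph V), IsRegTree d G ∧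
        ∀ θ : ℝ, FreeIsingIsFIID G θ → FreeIsingIsFIID H θ) ∧
    (∀ (V : Type) (G : SimpleGraph V) (θ₁ θ₂ : ℝ), 0 ≤ θ₁ → θ₁ ≤ 1 → 0 ≤ θ₂ → θ₂ ≤ 1 →
      FreeIsingIsFIID G θ₁ → FreeIsingIsFIID G θ₂ → FreeIsingIsFIID G (θ₁ * θ₂)) := by
  refine ⟨fun d hd => ⟨_, wordTree d (d - 1), inferInstance, wordTree_isRegTree d hd⟩, ?_, ?_, ?_⟩
  · intro d' d θ h1 hdd hall W H hH
    exact freeIsingIsFIID_of_rootedProd
      (hall _ _ (rootedProd_isRegTree (h1.trans hdd) hdd hH))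
  · intro d' d h1 hdd W H hH
    exact ⟨_, _, rootedProd_isRegTree (h1.trans hdd) hdd hH,
      fun θ h => freeIsingIsFIID_of_rootedProd h⟩
  · intro V G θ₁ θ₂ a b c e h₁ h₂
    exact freeIsingIsFIID_mul a b c e h₁ h₂

end Vale.Agent.Results.P161.DegreeMonotoneAndProducts
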