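import Vale.Agent.Lib.P161.Final
import Vale.Agent.Lib.P161.Mono.Main

/-!
# P161: the set of parameters for which the free Ising measure on the regular tree is a factor of
IID is an interval starting at `0`

If the free Ising measure with parameter `θ = tanh β` on a `d`-regular tree is a factor of IID,
then so is the one with any parameter `0 ≤ θ' ≤ θ`; together with monotonicity in the degree, the
set of pairs `(d, θ)` with this property is a down-set.

The objects `IsRegTree`, `FreeIsingIsFIID` (and `IsFreeIsing`, `IsFIID`, `obs`, `act`, `iidLaw`) are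
defined in `Vale/Agent/Lib/P161/Defs.lean`.
-/

namespace Vale.Agent.Results.P161.IntervalInTheta

open Vale.Agent.Lib.P161

theorem result :
    (∀ d : ℕ, 1 ≤ d → ∃ (V : Type) (G : SimpleGraph V), Countable V ∧ IsRegTree d G) ∧
    (∀ (d : ℕ) (V : Type) (G : SimpleGraph V), IsRegTree d G →
      ∀ θ' θ : ℝ, 0 ≤ θ' → θ' ≤ θ → FreeIsingIsFIID G θ → FreeIsingIsFIID G θ') ∧
    (∀ (d' d : ℕ) (θ' θ : ℝ), 1 ≤ d' → d' ≤ d → 0 ≤ θ' → θ' ≤ θ →
      (∀ (V : Type) (G : SimpleGraph V), IsRegTree d G → FreeIsingIsFIID G θ) →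
      ∀ (W : Type) (H : SimpleGraph W), IsRegTree d' H → FreeIsingIsFIID H θ') := by
  have key : ∀ (d : ℕ) (V : Type) (G : SimpleGraph V), IsRegTree d G →
      ∀ θ' θ : ℝ, 0 ≤ θ' → θ' ≤ θ → FreeIsingIsFIID G θ → FreeIsingIsFIID G θ' := by
    intro d V G hG θ' θ h0 h1 h
    rcases eq_or_lt_of_le (h0.trans h1) with h2 | h2
    · have h3 : θ' = θ := le_antisymm h1 (h2 ▸ h0)
      rw [h3]
      exact h
    · have h3 := freeIsingIsFIID_mono hG (θ := θ) (t := θ' / θ) h2.le (div_nonneg h0 h2.le)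
        ((div_le_one h2).2 h1) h
      rwa [div_mul_cancel₀ _ h2.ne'] at h3
  refine ⟨fun d hd => ⟨_, wordTree d (d - 1), inferInstance, wordTree_isRegTree d hd⟩, key, ?_⟩
  intro d' d θ' θ h1 hdd h0 hle hall W H hH
  exact key d' W H hH θ' θ h0 hle
    (freeIsingIsFIID_of_rootedProd (hall _ _ (rootedProd_isRegTree (h1.trans hdd) hdd hH)))

end Vale.Agent.Results.P161.IntervalInTheta
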